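import Vale.Agent.P243.Planar2

/-!
Chords of a convex body in `W × ℝ`.
-/

open MeasureTheory Set Module Pointwise
open scoped ENNReal Topology

namespace Vale.Agent.P243

variable {W : Type*} [NormedAddCommGroup W] [NormedSpace ℝ W]

/-- The chord of `K` over the point `z`, as a subset of the line. -/
def chordSet (K : Set (W × ℝ)) (z : W) : Set ℝ := {t | (z, t) ∈ K}

/-- The length of the chord of `K` over `z`. -/
noncomputable def chordLen (K : Set (W × ℝ)) (z : W) : ℝ := (volume (chordSet K z)).toReal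

theorem chordSet_eq_Icc {K : Set (W × ℝ)} (hc : IsCompact K) (hconv : Convex ℝ K) {z : W}
    (hz : z ∈ Prod.fst '' K) :
    ∃ a b : ℝ, a ≤ b ∧ chordSet K z = Icc a b := by
  obtain ⟨⟨z', t⟩, ht, rfl⟩ := hz
  have hne : (chordSet K z').Nonempty := ⟨t, ht⟩
  have hcomp : IsCompact (chordSet K z') := by
    apply (hc.image continuous_snd).of_isClosed_subset
    · exact hc.isClosed.preimage (by fun_prop : Continuous fun t : ℝ => (z', t))
    · intro s hs
      exact ⟨(z', s), hs, rfl⟩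
  have hconv' : Convex ℝ (chordSet K z') := by
    intro s hs s' hs' α β hα hβ hαβ
    have := hconv hs hs' hα hβ hαβ
    have he : α • ((z', s) : W × ℝ) + β • (z', s') = (z', α • s + β • s') := by
      ext
      · simp only [Prod.fst_add, Prod.smul_fst, ← add_smul, hαβ, one_smul]
      · simp
    rw [he] at this
    exact this
  refine ⟨sInf (chordSet K z'), sSup (chordSet K z'), csInf_le_csSup hne hcomp.bddBelow hcomp.bddAbove, ?_⟩
  apply Subset.antisymm
  · intro x hx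
    exact ⟨csInf_le hcomp.bddBelow hx, le_csSup hcomp.bddAbove hx⟩
  · exact hconv'.ordConnected.out (hcomp.sInf_mem hne) (hcomp.sSup_mem hne)

theorem chordLen_eq {K : Set (W × ℝ)} {z : W} {a b : ℝ} (hab : a ≤ b)
    (h : chordSet K z = Icc a b) : chordLen K z = b - a := by
  simp [chordLen, h, hab]

theorem chordLen_nonneg (K : Set (W × ℝ)) (z : W) : 0 ≤ chordLen K z := ENNReal.toReal_nonneg

/-- Concavity of the chord length on the projection. -/
theorem chordLen_concave {K : Set (W × ℝ)} (hc : IsCompact K) (hconv : Convex ℝ K) {z₁ z₂ : W}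
    (h₁ : z₁ ∈ Prod.fst '' K) (h₂ : z₂ ∈ Prod.fst '' K) {α β : ℝ} (hα : 0 ≤ α) (hβ : 0 ≤ β)
    (hαβ : α + β = 1) :
    α * chordLen K z₁ + β * chordLen K z₂ ≤ chordLen K (α • z₁ + β • z₂) := by
  obtain ⟨a₁, b₁, hab₁, hs₁⟩ := chordSet_eq_Icc hc hconv h₁
  obtain ⟨a₂, b₂, hab₂, hs₂⟩ := chordSet_eq_Icc hc hconv h₂
  rw [chordLen_eq hab₁ hs₁, chordLen_eq hab₂ hs₂]
  have hmem : ∀ {s₁ s₂ : ℝ}, s₁ ∈ Icc a₁ b₁ → s₂ ∈ Icc a₂ b₂ →
      α * s₁ + β * s₂ ∈ chordSet K (α • z₁ + β • z₂) := by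
    intro s₁ s₂ h₁' h₂'
    have h1 : (z₁, s₁) ∈ K := by
      have : s₁ ∈ chordSet K z₁ := hs₁ ▸ h₁'
      exact this
    have h2 : (z₂, s₂) ∈ K := by
      have : s₂ ∈ chordSet K z₂ := hs₂ ▸ h₂'
      exact this
    have := hconv h1 h2 hα hβ hαβ
    have he : α • ((z₁, s₁) : W × ℝ) + β • (z₂, s₂) = (α • z₁ + β • z₂, α * s₁ + β * s₂) := by
      ext <;> simp
    rw [he] at this
    exact this
  have hlo := hmem (left_mem_Icc.mpr hab₁) (left_mem_Icc.mpr hab₂)
  have hhi := hmem (right_mem_Icc.mpr hab₁) (right_mem_Icc.mpr hab₂)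
  have hz : α • z₁ + β • z₂ ∈ Prod.fst '' K := ⟨(_, _), hhi, rfl⟩
  obtain ⟨a, b, hab, hs⟩ := chordSet_eq_Icc hc hconv hz
  rw [chordLen_eq hab hs]
  rw [hs] at hlo hhi
  have := hlo.1
  have := hhi.2
  nlinarith [hlo.1, hhi.2]

theorem neg_mem_fst_image {K : Set (W × ℝ)} (hsymm : ∀ x ∈ K, -x ∈ K) {z : W}
    (hz : z ∈ Prod.fst '' K) : -z ∈ Prod.fst '' K := by
  obtain ⟨⟨z', t⟩, ht, rfl⟩ := hz
  exact ⟨-(z', t), hsymm _ ht, rfl⟩

theorem chordLen_neg_ge {K : Set (W × ℝ)} (hc : IsCompact K) (hconv : Convex ℝ K)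
    (hsymm : ∀ x ∈ K, -x ∈ K) {z : W} (hz : z ∈ Prod.fst '' K) :
    chordLen K z ≤ chordLen K (-z) := by
  obtain ⟨a, b, hab, hs⟩ := chordSet_eq_Icc hc hconv hz
  obtain ⟨a', b', hab', hs'⟩ := chordSet_eq_Icc hc hconv (neg_mem_fst_image hsymm hz)
  rw [chordLen_eq hab hs, chordLen_eq hab' hs']
  have hmem : ∀ s ∈ Icc a b, -s ∈ Icc a' b' := by
    intro s hs0
    have h1 : (z, s) ∈ K := by
      have : s ∈ chordSet K z := hs ▸ hs0
      exact this
    have h2 := hsymm _ h1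
    have : -s ∈ chordSet K (-z) := h2
    rwa [hs'] at this
  have h1 := hmem a (left_mem_Icc.mpr hab)
  have h2 := hmem b (right_mem_Icc.mpr hab)
  linarith [h1.2, h2.1]

/-- Chords over the segment `[-z, z]` are at least as long as the chord over `z`. -/
theorem chordLen_segment_ge {K : Set (W × ℝ)} (hc : IsCompact K) (hconv : Convex ℝ K)
    (hsymm : ∀ x ∈ K, -x ∈ K) {z : W} (hz : z ∈ Prod.fst '' K) {s : ℝ} (hs : s ∈ Icc (-1 : ℝ) 1) :
    chordLen K z ≤ chordLen K (s • z) := by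
  have hα : 0 ≤ (1 + s) / 2 := by linarith [hs.1]
  have hβ : 0 ≤ (1 - s) / 2 := by linarith [hs.2]
  have hcon := chordLen_concave hc hconv hz (neg_mem_fst_image hsymm hz) hα hβ (by ring)
  have he : ((1 + s) / 2) • z + ((1 - s) / 2) • (-z) = s • z := by
    simp only [smul_neg]
    rw [← sub_eq_add_neg, ← sub_smul]
    congr 1; ring
  rw [he] at hcon
  have hn := chordLen_neg_ge hc hconv hsymm hz
  nlinarith

theorem mem_fst_image_of_convex {K : Set (W × ℝ)} (hconv : Convex ℝ K) {z₁ z₂ : W}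
    (h₁ : z₁ ∈ Prod.fst '' K) (h₂ : z₂ ∈ Prod.fst '' K) {α β : ℝ} (hα : 0 ≤ α) (hβ : 0 ≤ β)
    (hαβ : α + β = 1) : α • z₁ + β • z₂ ∈ Prod.fst '' K :=
  (hconv.linear_image (LinearMap.fst ℝ W ℝ)) h₁ h₂ hα hβ hαβ

/-- Level sets of the chord length contain thickenings. -/
theorem chordLen_ge_of_mem_segThick {K : Set (W × ℝ)} (hc : IsCompact K) (hconv : Convex ℝ K)
    (hsymm : ∀ x ∈ K, -x ∈ K) {z : W} (hz : z ∈ Prod.fst '' K) {τ : ℝ} (hτ0 : 0 ≤ τ) (hτ1 : τ ≤ 1)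
    {x : W} (hx : x ∈ segThick (Prod.fst '' K) z τ) : τ * chordLen K z ≤ chordLen K x := by
  obtain ⟨⟨s, p⟩, ⟨hs, hp⟩, rfl⟩ := hx
  dsimp only at *
  have hsz : s • z ∈ Prod.fst '' K := by
    have hα : 0 ≤ (1 + s) / 2 := by linarith [hs.1]
    have hβ : 0 ≤ (1 - s) / 2 := by linarith [hs.2]
    have := mem_fst_image_of_convex hconv hz (neg_mem_fst_image hsymm hz) hα hβ (by ring)
    have he : ((1 + s) / 2) • z + ((1 - s) / 2) • (-z) = s • z := by
      simp only [smul_neg]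
      rw [← sub_eq_add_neg, ← sub_smul]
      congr 1; ring
    rwa [he] at this
  have h1 := chordLen_concave hc hconv hsz hp hτ0 (by linarith : 0 ≤ 1 - τ) (by ring)
  have h2 := chordLen_segment_ge hc hconv hsymm hz hs
  have h3 := chordLen_nonneg K p
  have h4 : 0 ≤ 1 - τ := by linarith
  nlinarith [mul_nonneg h4 h3, mul_le_mul_of_nonneg_left h2 hτ0]

end Vale.Agent.P243
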