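import Vale.Agent.P243.VolumeBound

/-!
The bound for the weighted chord integral, and the estimate for a single cylinder in `W × ℝ`.
-/

open MeasureTheory Set Module Pointwise
open scoped ENNReal Topology

namespace Vale.Agent.P243

theorem integral_affine_piece (a c v w : ℝ) (hac : a < c) :
    ∫ t in a..c, (1 + 2 * ((v * (c - t) + w * (t - a)) / (c - a))) = (c - a) * (1 + v + w) := by
  have hne : c - a ≠ 0 := (sub_pos.mpr hac).ne'
  have hderiv : ∀ t ∈ uIcc a c,
      HasDerivAt (fun t : ℝ => t + 2 / (c - a) * (v * (c * t - t ^ 2 / 2) + w * (t ^ 2 / 2 - a * t)))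
        (1 + 2 * ((v * (c - t) + w * (t - a)) / (c - a))) t := by
    intro t _
    have h1 : HasDerivAt (fun x : ℝ => x) 1 t := hasDerivAt_id' t
    have h2 : HasDerivAt (fun x : ℝ => x ^ 2) (2 * t) t := by simpa using hasDerivAt_pow 2 t
    have h3 := h1.add (HasDerivAt.const_mul (2 / (c - a))
      ((HasDerivAt.const_mul v ((h1.const_mul c).sub (h2.div_const 2))).add
        (HasDerivAt.const_mul w ((h2.div_const 2).sub (h1.const_mul a)))))
    refine h3.congr_deriv ?_
    field_simp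
  rw [intervalIntegral.integral_eq_sub_of_hasDerivAt hderiv]
  · field_simp
    ring
  · apply Continuous.intervalIntegrable
    fun_prop

theorem lintegral_oneSide (h : ℝ → ℝ) (a c v w : ℝ) (hac : a ≤ c) (hv : 0 ≤ v) (hw : 0 ≤ w)
    (hb : ∀ t ∈ Icc a c, (c - a) * h t ≤ v * (c - t) + w * (t - a)) :
    ∫⁻ t in Icc a c, ENNReal.ofReal (1 + 2 * h t) ≤ ENNReal.ofReal ((c - a) * (1 + v + w)) := by
  rcases hac.eq_or_lt with rfl | hlt
  · rw [setLIntegral_measure_zero]
    · exact bot_le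
    · simp
  have hpos : 0 < c - a := sub_pos.mpr hlt
  have hcont : Continuous fun t : ℝ => 1 + 2 * ((v * (c - t) + w * (t - a)) / (c - a)) := by
    fun_prop
  calc ∫⁻ t in Icc a c, ENNReal.ofReal (1 + 2 * h t)
      ≤ ∫⁻ t in Icc a c, ENNReal.ofReal (1 + 2 * ((v * (c - t) + w * (t - a)) / (c - a))) := by
        apply setLIntegral_mono' measurableSet_Icc
        intro t ht
        apply ENNReal.ofReal_le_ofReal
        have := hb t ht
        have h2 : h t ≤ (v * (c - t) + w * (t - a)) / (c - a) := by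
          rw [le_div_iff₀ hpos]
          linarith
        linarith
    _ = ENNReal.ofReal (∫ t in Icc a c, (1 + 2 * ((v * (c - t) + w * (t - a)) / (c - a)))) := by
        rw [ofReal_integral_eq_lintegral_ofReal]
        · exact hcont.continuousOn.integrableOn_Icc
        · refine (ae_restrict_iff' measurableSet_Icc).mpr (Filter.Eventually.of_forall ?_)
          intro t ht
          have h1 : 0 ≤ c - t := by linarith [ht.2]
          have h2 : 0 ≤ t - a := by linarith [ht.1]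
          show (0 : ℝ) ≤ 1 + 2 * ((v * (c - t) + w * (t - a)) / (c - a))
          positivity
    _ = ENNReal.ofReal ((c - a) * (1 + v + w)) := by
        rw [integral_Icc_eq_integral_Ioc, ← intervalIntegral.integral_of_le hac,
          integral_affine_piece a c v w hlt]

variable {W : Type*} [NormedAddCommGroup W] [NormedSpace ℝ W]

/-- Convexity along a chord, in the form needed. -/
theorem convex_along_chord {K : Set (W × ℝ)} {G : W × ℝ → ℝ} (hG : ConvexOn ℝ K G) {z : W}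
    {s₁ s₂ t v w : ℝ} (h₁ : (z, s₁) ∈ K) (h₂ : (z, s₂) ∈ K) (hv : G (z, s₁) ≤ v)
    (hw : G (z, s₂) ≤ w) (ht : t ∈ Icc s₁ s₂) :
    (s₂ - s₁) * G (z, t) ≤ v * (s₂ - t) + w * (t - s₁) := by
  rcases (ht.1.trans ht.2).eq_or_lt with hs | hs
  · have h1 : t = s₁ := le_antisymm (by linarith [ht.2]) ht.1
    simp [← hs, h1]
  have hpos : 0 < s₂ - s₁ := sub_pos.mpr hs
  have hα : 0 ≤ (s₂ - t) / (s₂ - s₁) := div_nonneg (by linarith [ht.2]) hpos.le
  have hβ : 0 ≤ (t - s₁) / (s₂ - s₁) := div_nonneg (by linarith [ht.1]) hpos.le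
  have hαβ : (s₂ - t) / (s₂ - s₁) + (t - s₁) / (s₂ - s₁) = 1 := by
    field_simp
    ring
  have hc := hG.2 h₁ h₂ hα hβ hαβ
  have he : ((s₂ - t) / (s₂ - s₁)) • ((z, s₁) : W × ℝ) + ((t - s₁) / (s₂ - s₁)) • (z, s₂) =
      (z, t) := by
    ext
    · simp only [Prod.fst_add, Prod.smul_fst]
      rw [← add_smul, hαβ, one_smul]
    · simp only [Prod.snd_add, Prod.smul_snd, smul_eq_mul]
      field_simp
      ring
  rw [he] at hc
  simp only [smul_eq_mul] at hc
  calc (s₂ - s₁) * G (z, t)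
      ≤ (s₂ - s₁) * ((s₂ - t) / (s₂ - s₁) * G (z, s₁) + (t - s₁) / (s₂ - s₁) * G (z, s₂)) :=
        mul_le_mul_of_nonneg_left hc hpos.le
    _ = (s₂ - t) * G (z, s₁) + (t - s₁) * G (z, s₂) := by
        field_simp
    _ ≤ v * (s₂ - t) + w * (t - s₁) := by
        have h1 : 0 ≤ s₂ - t := by linarith [ht.2]
        have h2 : 0 ≤ t - s₁ := by linarith [ht.1]
        nlinarith [mul_le_mul_of_nonneg_left hv h1, mul_le_mul_of_nonneg_left hw h2]

/-- The weighted chord integral. -/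
theorem chord_integral_le {K : Set (W × ℝ)} (hc : IsCompact K) (hconv : Convex ℝ K)
    {G : W × ℝ → ℝ} (hG : ConvexOn ℝ K G) (h1 : ∀ x ∈ K, G x ≤ 1) {z : W} {r t₀ : ℝ} (hr : 0 ≤ r)
    (ht₀ : (z, t₀) ∈ K) (hG₀ : G (z, t₀) ≤ r) :
    ∫⁻ t in chordSet K z, ENNReal.ofReal (1 + 2 * G (z, t)) ≤
      ENNReal.ofReal (chordLen K z * (2 + r)) := by
  have hz : z ∈ Prod.fst '' K := ⟨(z, t₀), ht₀, rfl⟩
  obtain ⟨a, b, hab, hs⟩ := chordSet_eq_Icc hc hconv hz
  have hmem : ∀ s ∈ Icc a b, (z, s) ∈ K := fun s hs' => by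
    have : s ∈ chordSet K z := hs ▸ hs'
    exact this
  have ht₀' : t₀ ∈ Icc a b := by
    have : t₀ ∈ chordSet K z := ht₀
    rwa [hs] at this
  have ha : (z, a) ∈ K := hmem a (left_mem_Icc.mpr hab)
  have hb : (z, b) ∈ K := hmem b (right_mem_Icc.mpr hab)
  rw [chordLen_eq hab hs, hs]
  have hunion : Icc a b = Icc a t₀ ∪ Icc t₀ b := (Icc_union_Icc_eq_Icc ht₀'.1 ht₀'.2).symm
  rw [hunion]
  have hl := lintegral_oneSide (fun t => G (z, t)) a t₀ 1 r ht₀'.1 zero_le_one hr
    (fun t ht => convex_along_chord hG ha ht₀ (h1 _ ha) hG₀ ht)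
  have hr' := lintegral_oneSide (fun t => G (z, t)) t₀ b r 1 ht₀'.2 hr zero_le_one
    (fun t ht => convex_along_chord hG ht₀ hb hG₀ (h1 _ hb) ht)
  calc ∫⁻ t in Icc a t₀ ∪ Icc t₀ b, ENNReal.ofReal (1 + 2 * G (z, t))
      ≤ (∫⁻ t in Icc a t₀, ENNReal.ofReal (1 + 2 * G (z, t))) +
          ∫⁻ t in Icc t₀ b, ENNReal.ofReal (1 + 2 * G (z, t)) := lintegral_union_le _ _ _
    _ ≤ ENNReal.ofReal ((t₀ - a) * (1 + 1 + r)) + ENNReal.ofReal ((b - t₀) * (1 + r + 1)) :=
        add_le_add hl hr'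
    _ = ENNReal.ofReal ((b - a) * (2 + r)) := by
        rw [← ENNReal.ofReal_add]
        · congr 1; ring
        · have : 0 ≤ t₀ - a := by linarith [ht₀'.1]
          positivity
        · have : 0 ≤ b - t₀ := by linarith [ht₀'.2]
          positivity

/-- Over every point `z` of the projection there is a point of the chord at which `G` is at most the
gauge of `z` in the projection. -/
theorem exists_low_point {K : Set (W × ℝ)} (hc : IsCompact K) (hconv : Convex ℝ K)
    (h0 : K ∈ 𝓝 (0 : W × ℝ)) {G : W × ℝ → ℝ} (hG : ConvexOn ℝ K G) (hG0 : G 0 = 0)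
    (h1 : ∀ x ∈ K, G x ≤ 1) {z : W} (hz : z ∈ Prod.fst '' K) :
    ∃ t₀, (z, t₀) ∈ K ∧ G (z, t₀) ≤ gauge (Prod.fst '' K) z := by
  set P : Set W := Prod.fst '' K with hP
  have h0K : (0 : W × ℝ) ∈ K := mem_of_mem_nhds h0
  have hPc : IsCompact P := hc.image continuous_fst
  have hPconv : Convex ℝ P := hconv.linear_image (LinearMap.fst ℝ W ℝ)
  have hP0 : P ∈ 𝓝 (0 : W) := by
    have := isOpenMap_fst.image_mem_nhds h0
    simpa using this
  by_cases hzz : z = 0
  · subst hzz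
    exact ⟨0, h0K, by
      rw [show ((0 : W), (0 : ℝ)) = (0 : W × ℝ) from rfl, hG0]
      exact gauge_nonneg _⟩
  have habs : Absorbent ℝ P := absorbent_nhds_zero hP0
  have hbd : Bornology.IsVonNBounded ℝ P := NormedSpace.isVonNBounded_iff ℝ |>.mpr hPc.isBounded
  have hrpos : 0 < gauge P z := (gauge_pos habs hbd).mpr hzz
  have hr1 : gauge P z ≤ 1 := gauge_le_one_of_mem hz
  set r := gauge P z with hr
  have hgz : gauge P (r⁻¹ • z) ≤ 1 := by
    rw [gauge_smul_of_nonneg (inv_nonneg.mpr hrpos.le), ← hr, smul_eq_mul,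
      inv_mul_cancel₀ hrpos.ne']
  have hmemP : r⁻¹ • z ∈ P := by
    have := (gauge_le_one_iff_mem_closure hPconv hP0).mp hgz
    rwa [hPc.isClosed.closure_eq] at this
  obtain ⟨⟨p, τ⟩, hpK, hpe⟩ := hmemP
  simp only at hpe
  refine ⟨r * τ, ?_, ?_⟩
  · have := hconv h0K hpK (by linarith : 0 ≤ 1 - r) hrpos.le (by ring)
    have he : (1 - r) • (0 : W × ℝ) + r • ((p, τ) : W × ℝ) = (z, r * τ) := by
      ext
      · simp [hpe, smul_smul, mul_inv_cancel₀ hrpos.ne']
      · simp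
    rwa [he] at this
  · have := hG.2 h0K hpK (by linarith : 0 ≤ 1 - r) hrpos.le (by ring)
    have he : (1 - r) • (0 : W × ℝ) + r • ((p, τ) : W × ℝ) = (z, r * τ) := by
      ext
      · simp [hpe, smul_smul, mul_inv_cancel₀ hrpos.ne']
      · simp
    rw [he, hG0] at this
    simp only [smul_eq_mul, mul_zero, zero_add] at this
    have h2 := h1 _ hpK
    nlinarith

end Vale.Agent.P243
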