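import Vale.Agent.P243.ChordIntegral

/-!
The estimate for a single cylinder in `W × ℝ`.
-/

open MeasureTheory Set Module Pointwise
open scoped ENNReal Topology

namespace Vale.Agent.P243

variable {W : Type*} [NormedAddCommGroup W] [NormedSpace ℝ W]
    [MeasurableSpace W] [BorelSpace W] [FiniteDimensional ℝ W]

/-- The weighted chord integral over `z`, multiplied by the area of the projection, is at most
`6` times the volume. -/
theorem chord_integral_area_le (μ : Measure W) [μ.IsAddHaarMeasure] (hW : finrank ℝ W = 2)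
    {K : Set (W × ℝ)} (hc : IsCompact K) (hconv : Convex ℝ K) (hsymm : ∀ x ∈ K, -x ∈ K)
    (h0 : K ∈ 𝓝 (0 : W × ℝ)) {G : W × ℝ → ℝ} (hG : ConvexOn ℝ K G) (hG0 : G 0 = 0)
    (h1 : ∀ x ∈ K, G x ≤ 1) (z : W) :
    μ (Prod.fst '' K) * ∫⁻ t in chordSet K z, ENNReal.ofReal (1 + 2 * G (z, t)) ≤
      6 * (μ.prod volume) K := by
  by_cases hz : z ∈ Prod.fst '' K
  · obtain ⟨t₀, ht₀, hG₀⟩ := exists_low_point hc hconv h0 hG hG0 h1 hz
    set r := gauge (Prod.fst '' K) z with hr
    have hr0 : 0 ≤ r := gauge_nonneg _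
    have hchord := chord_integral_le hc hconv hG h1 hr0 ht₀ hG₀
    have hvol := volume_lower_bound μ hW hc hconv hsymm hz
    rw [← hr] at hvol
    have hL := chordLen_nonneg K z
    calc μ (Prod.fst '' K) * ∫⁻ t in chordSet K z, ENNReal.ofReal (1 + 2 * G (z, t))
        ≤ μ (Prod.fst '' K) * ENNReal.ofReal (chordLen K z * (2 + r)) :=
          mul_le_mul_right hchord _
      _ = 6 * (ENNReal.ofReal (chordLen K z * (1 / 3 + r / 6)) * μ (Prod.fst '' K)) := by
          have : chordLen K z * (2 + r) = 6 * (chordLen K z * (1 / 3 + r / 6)) := by ring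
          rw [this, ENNReal.ofReal_mul (by norm_num)]
          have h6 : ENNReal.ofReal 6 = 6 := by simp
          rw [h6]
          ring
      _ ≤ 6 * (μ.prod volume) K := mul_le_mul_right hvol _
  · have : chordSet K z = ∅ := by
      ext t
      simp only [chordSet, mem_ofPred_eq, mem_empty_iff_false, iff_false]
      intro ht
      exact hz ⟨(z, t), ht, rfl⟩
    simp [this]

/-- The estimate for a single cylinder. -/
theorem cylinder_estimate (μ : Measure W) [μ.IsAddHaarMeasure] (hW : finrank ℝ W = 2)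
    {K : Set (W × ℝ)} (hc : IsCompact K) (hconv : Convex ℝ K) (hsymm : ∀ x ∈ K, -x ∈ K)
    (h0 : K ∈ 𝓝 (0 : W × ℝ)) {G : W × ℝ → ℝ} (hGc : Continuous G) (hG : ConvexOn ℝ K G)
    (hG0 : G 0 = 0) (h1 : ∀ x ∈ K, G x ≤ 1) {B : Set W} (hB : MeasurableSet B) :
    μ (Prod.fst '' K) *
        ∫⁻ x in K ∩ Prod.fst ⁻¹' B, ENNReal.ofReal (1 + 2 * G x) ∂(μ.prod volume) ≤
      6 * (μ.prod volume) K * μ B := by
  have hSm : MeasurableSet (K ∩ Prod.fst ⁻¹' B) :=
    hc.measurableSet.inter (measurable_fst hB)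
  have hFm : Measurable fun x : W × ℝ => ENNReal.ofReal (1 + 2 * G x) :=
    (ENNReal.continuous_ofReal.comp (by fun_prop)).measurable
  have hlt : μ (Prod.fst '' K) ≠ ⊤ := (hc.image continuous_fst).measure_lt_top.ne
  have hstep : ∫⁻ x in K ∩ Prod.fst ⁻¹' B, ENNReal.ofReal (1 + 2 * G x) ∂(μ.prod volume) ≤
      ∫⁻ z in B, (∫⁻ t in chordSet K z, ENNReal.ofReal (1 + 2 * G (z, t))) ∂μ := by
    rw [← lintegral_indicator hSm, lintegral_prod _ ((hFm.indicator hSm).aemeasurable),
      ← lintegral_indicator hB]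
    apply lintegral_mono
    intro z
    by_cases hz : z ∈ B
    · rw [indicator_of_mem hz]
      have hsec : MeasurableSet (chordSet K z) :=
        hc.measurableSet.preimage (by fun_prop : Measurable fun t : ℝ => (z, t))
      rw [← lintegral_indicator hsec]
      apply lintegral_mono
      intro t
      dsimp only
      by_cases ht : (z, t) ∈ K
      · have ht' : t ∈ chordSet K z := ht
        rw [indicator_of_mem ht', indicator_of_mem (show (z, t) ∈ K ∩ Prod.fst ⁻¹' B from ⟨ht, hz⟩)]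
      · rw [indicator_of_notMem (fun h : (z, t) ∈ K ∩ Prod.fst ⁻¹' B => ht h.1)]
        exact bot_le
    · rw [indicator_of_notMem hz]
      have : ∀ t : ℝ, (K ∩ Prod.fst ⁻¹' B).indicator
          (fun x : W × ℝ => ENNReal.ofReal (1 + 2 * G x)) (z, t) = 0 := by
        intro t
        exact indicator_of_notMem (fun h : (z, t) ∈ K ∩ Prod.fst ⁻¹' B => hz h.2) _
      simp [this]
  calc μ (Prod.fst '' K) *
        ∫⁻ x in K ∩ Prod.fst ⁻¹' B, ENNReal.ofReal (1 + 2 * G x) ∂(μ.prod volume)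
      ≤ μ (Prod.fst '' K) * ∫⁻ z in B, (∫⁻ t in chordSet K z, ENNReal.ofReal (1 + 2 * G (z, t))) ∂μ :=
        mul_le_mul_right hstep _
    _ = ∫⁻ z in B, μ (Prod.fst '' K) * (∫⁻ t in chordSet K z, ENNReal.ofReal (1 + 2 * G (z, t))) ∂μ :=
        (lintegral_const_mul' _ _ hlt).symm
    _ ≤ ∫⁻ _z in B, 6 * (μ.prod volume) K ∂μ :=
        lintegral_mono fun z => chord_integral_area_le μ hW hc hconv hsymm h0 hG hG0 h1 z
    _ = 6 * (μ.prod volume) K * μ B := by
        rw [setLIntegral_const]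

end Vale.Agent.P243
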