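import Mathlib

/-!
Coordinates on a plane in Euclidean three-space.
-/

namespace Vale.Agent.P243

/-- Coordinates with respect to a pair of vectors, given by inner products. For an orthonormal pair
`v, w` this is the orthogonal projection onto the plane they span, in the coordinates of that
basis of the plane. -/
noncomputable def planeCoord (v w : EuclideanSpace ℝ (Fin 3)) (x : EuclideanSpace ℝ (Fin 3)) :
    ℝ × ℝ :=
  (inner ℝ v x, inner ℝ w x)

end Vale.Agent.P243
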