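import Vale.Agent.P243.Cylinder
import Vale.Agent.P243.Defs

/-!
Bang's cylinder covering problem for centrally symmetric bodies in three-space.
-/

open MeasureTheory Set Module Pointwise Submodule
open scoped ENNReal Topology

namespace Vale.Agent.P243

/-- Euclidean three-space. -/
abbrev E := EuclideanSpace ℝ (Fin 3)

/-- A linear chart of space in which `planeCoord v w` is the first component. -/
theorem exists_decomp (v w : E) (hv : ‖v‖ = 1) (hw : ‖w‖ = 1) (hvw : inner ℝ v w = (0 : ℝ)) :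
    ∃ T : ((ℝ × ℝ) × ℝ) ≃L[ℝ] E, ∀ x, planeCoord v w (T x) = x.1 := by
  let L : E →ₗ[ℝ] ℝ × ℝ := (innerₗ E v).prod (innerₗ E w)
  have hL : ∀ x, L x = planeCoord v w x := fun x => rfl
  have hwv : inner ℝ w v = (0 : ℝ) := by rw [real_inner_comm]; exact hvw
  obtain ⟨u, hu0, hu⟩ : ∃ u : E, u ≠ 0 ∧ L u = 0 := by
    by_contra hcon
    push Not at hcon
    have hinj : Function.Injective L := by
      rw [injective_iff_map_eq_zero]
      intro a ha
      by_contra hne
      exact hcon a hne ha
    have := LinearMap.finrank_le_finrank_of_injective hinj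
    simp at this
  let f : ((ℝ × ℝ) × ℝ) →ₗ[ℝ] E :=
    ((LinearMap.toSpanSingleton ℝ E v).coprod (LinearMap.toSpanSingleton ℝ E w)).coprod
      (LinearMap.toSpanSingleton ℝ E u)
  have hf : ∀ a b t, f ((a, b), t) = a • v + b • w + t • u := by
    intro a b t
    simp [f]
  have hLf : ∀ x, L (f x) = x.1 := by
    rintro ⟨⟨a, b⟩, t⟩
    rw [hf, map_add, map_add, map_smul, map_smul, map_smul, hu, hL, hL]
    ext <;> simp [planeCoord, hv, hw, hvw, hwv]
  have hinj : Function.Injective f := by
    rw [injective_iff_map_eq_zero]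
    rintro ⟨⟨a, b⟩, t⟩ h
    have h1 := hLf ((a, b), t)
    rw [h, map_zero] at h1
    have ha : a = 0 := (congrArg Prod.fst h1).symm
    have hb : b = 0 := (congrArg Prod.snd h1).symm
    subst ha hb
    rw [hf] at h
    simp only [zero_smul, add_zero, zero_add, smul_eq_zero, hu0, or_false] at h
    subst h
    rfl
  have hdim : finrank ℝ ((ℝ × ℝ) × ℝ) = finrank ℝ E := by simp
  refine ⟨(f.linearEquivOfInjective hinj hdim).toContinuousLinearEquiv, fun x => ?_⟩
  exact hLf x

/-- The estimate for one cylinder in three-space. -/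
theorem cylinder_estimate_E {K : Set E} (hc : IsCompact K) (hconv : Convex ℝ K)
    (hsymm : ∀ x ∈ K, -x ∈ K) (h0 : K ∈ 𝓝 (0 : E)) (v w : E) (hv : ‖v‖ = 1) (hw : ‖w‖ = 1)
    (hvw : inner ℝ v w = (0 : ℝ)) {B : Set (ℝ × ℝ)} (hB : MeasurableSet B) :
    volume (planeCoord v w '' K) *
        ∫⁻ x in K ∩ planeCoord v w ⁻¹' B, ENNReal.ofReal (1 + 2 * gauge K x) ≤
      6 * volume K * volume B := by
  obtain ⟨T, hπT⟩ := exists_decomp v w hv hw hvw
  set π := planeCoord v w with hπ
  set K' : Set ((ℝ × ℝ) × ℝ) := T ⁻¹' K with hK'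
  have hK'c : IsCompact K' := T.toHomeomorph.isCompact_preimage.mpr hc
  have hK'conv : Convex ℝ K' := hconv.linear_preimage T.toLinearMap
  have hK'symm : ∀ x ∈ K', -x ∈ K' := by
    intro x hx
    show T (-x) ∈ K
    rw [map_neg]
    exact hsymm _ hx
  have hK'0 : K' ∈ 𝓝 (0 : (ℝ × ℝ) × ℝ) := by
    apply T.continuous.continuousAt.preimage_mem_nhds
    rwa [map_zero]
  have habs : Absorbent ℝ K := absorbent_nhds_zero h0
  have hgc : Continuous (gauge K) := continuous_gauge hconv h0
  set G : (ℝ × ℝ) × ℝ → ℝ := fun x => gauge K (T x) with hG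
  have hGc : Continuous G := hgc.comp T.continuous
  have hGconv : ConvexOn ℝ K' G := by
    refine ⟨hK'conv, ?_⟩
    intro x _ y _ a b ha hb _
    simp only [hG, map_add, map_smul, smul_eq_mul]
    calc gauge K (a • T x + b • T y)
        ≤ gauge K (a • T x) + gauge K (b • T y) := gauge_add_le hconv habs _ _
      _ = a * gauge K (T x) + b * gauge K (T y) := by
          rw [gauge_smul_of_nonneg ha, gauge_smul_of_nonneg hb]
          simp
  have hG0 : G 0 = 0 := by simp [hG]
  have hG1 : ∀ x ∈ K', G x ≤ 1 := fun x hx => gauge_le_one_of_mem hx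
  have hfst : Prod.fst '' K' = π '' K := by
    ext z
    constructor
    · rintro ⟨x, hx, rfl⟩
      exact ⟨T x, hx, hπT x⟩
    · rintro ⟨x, hx, rfl⟩
      refine ⟨T.symm x, ?_, ?_⟩
      · show T (T.symm x) ∈ K
        simpa using hx
      · have := hπT (T.symm x)
        simpa using this.symm
  have hpre : T ⁻¹' (K ∩ π ⁻¹' B) = K' ∩ Prod.fst ⁻¹' B := by
    ext x
    simp only [mem_preimage, mem_inter_iff, hK', hπT]
  have hW2 : finrank ℝ (ℝ × ℝ) = 2 := by simp
  have hcyl := cylinder_estimate (volume : Measure (ℝ × ℝ)) hW2 hK'c hK'conv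
    hK'symm hK'0 hGc hGconv hG0 hG1 hB
  rw [hfst, ← hpre] at hcyl
  -- transfer to the ambient space
  set ρ : Measure ((ℝ × ℝ) × ℝ) := (volume : Measure (ℝ × ℝ)).prod volume with hρ
  have hmap : (ρ.map T).IsAddHaarMeasure := T.isAddHaarMeasure_map ρ
  have heq := Measure.isAddLeftInvariant_eq_smul (ρ.map T) (volume : Measure E)
  set c : ℝ≥0∞ := (Measure.addHaarScalarFactor (ρ.map T) (volume : Measure E) : ℝ≥0∞) with hcdef
  have hc0 : c ≠ 0 := by
    simp only [hcdef, ne_eq, ENNReal.coe_eq_zero]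
    exact (Measure.addHaarScalarFactor_pos_of_isAddHaarMeasure _ _).ne'
  have hct : c ≠ ⊤ := ENNReal.coe_ne_top
  have hTm : Measurable T := T.continuous.measurable
  have hvolK : ρ K' = c * volume K := by
    have h1 : ρ K' = (ρ.map T) K := (Measure.map_apply hTm hc.measurableSet).symm
    rw [h1]
    conv_lhs => rw [heq]
    simp [Measure.smul_apply, hcdef]
  have hπc : Continuous π := by
    have h1 : π = fun x => (inner ℝ v x, inner ℝ w x) := rfl
    rw [h1]
    fun_prop
  have hSm : MeasurableSet (K ∩ π ⁻¹' B) := hc.measurableSet.inter (hπc.measurable hB)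
  have hFm : Measurable fun x : E => ENNReal.ofReal (1 + 2 * gauge K x) :=
    (ENNReal.continuous_ofReal.comp (by fun_prop)).measurable
  have hint : ∫⁻ x in T ⁻¹' (K ∩ π ⁻¹' B), ENNReal.ofReal (1 + 2 * G x) ∂ρ =
      c * ∫⁻ x in K ∩ π ⁻¹' B, ENNReal.ofReal (1 + 2 * gauge K x) := by
    have h1 := setLIntegral_map hSm hFm hTm (μ := ρ)
    rw [← h1]
    conv_lhs => rw [heq]
    rw [Measure.restrict_smul, lintegral_smul_measure]
    simp [hcdef]
    rfl
  rw [hint, hvolK] at hcyl
  have hmul : c * (volume (π '' K) * ∫⁻ x in K ∩ π ⁻¹' B, ENNReal.ofReal (1 + 2 * gauge K x)) ≤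
      c * (6 * volume K * volume B) := by
    calc c * (volume (π '' K) * ∫⁻ x in K ∩ π ⁻¹' B, ENNReal.ofReal (1 + 2 * gauge K x))
        = volume (π '' K) * (c * ∫⁻ x in K ∩ π ⁻¹' B, ENNReal.ofReal (1 + 2 * gauge K x)) := by ring
      _ ≤ 6 * (c * volume K) * volume B := hcyl
      _ = c * (6 * volume K * volume B) := by ring
  exact (ENNReal.mul_le_mul_iff_right hc0 hct).mp hmul

/-- The sublevel sets of the gauge have controlled volume. -/
theorem volume_gauge_le {K : Set E} (hc : IsCompact K) (hconv : Convex ℝ K) (h0 : K ∈ 𝓝 (0 : E))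
    {t : ℝ} (ht : 0 < t) : volume {x | gauge K x ≤ t} ≤ ENNReal.ofReal (t ^ 3) * volume K := by
  have hsub : {x | gauge K x ≤ t} ⊆ t • K := by
    intro x hx
    have h1 : gauge K (t⁻¹ • x) ≤ 1 := by
      rw [gauge_smul_of_nonneg (inv_nonneg.mpr ht.le), smul_eq_mul]
      have h2 : gauge K x ≤ t := hx
      calc t⁻¹ * gauge K x ≤ t⁻¹ * t := mul_le_mul_of_nonneg_left h2 (inv_nonneg.mpr ht.le)
        _ = 1 := inv_mul_cancel₀ ht.ne'
    have h2 := (gauge_le_one_iff_mem_closure hconv h0).mp h1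
    rw [hc.isClosed.closure_eq] at h2
    exact (mem_smul_set_iff_inv_smul_mem₀ ht.ne' _ _).mpr h2
  refine (measure_mono hsub).trans ?_
  rw [Measure.addHaar_smul_of_nonneg _ ht.le]
  simp

/-- The total mass of the weight `1 + 2 * gauge K` on `K`. -/
theorem mass_ge {K : Set E} (hc : IsCompact K) (hconv : Convex ℝ K) (h0 : K ∈ 𝓝 (0 : E)) :
    ENNReal.ofReal (5 / 2) * volume K ≤ ∫⁻ x in K, ENNReal.ofReal (1 + 2 * gauge K x) := by
  have hgc : Continuous (gauge K) := continuous_gauge hconv h0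
  have hgm : Measurable (gauge K) := hgc.measurable
  have hKm : MeasurableSet K := hc.measurableSet
  have hVfin : volume K ≠ ⊤ := hc.measure_lt_top.ne
  set V := volume K with hV
  -- layer cake for the gauge
  have hlayer : ENNReal.ofReal (3 / 4) * V ≤ ∫⁻ x in K, ENNReal.ofReal (gauge K x) := by
    rw [lintegral_eq_lintegral_meas_lt _ (Filter.Eventually.of_forall fun x => gauge_nonneg x)
      hgm.aemeasurable]
    have hlev : ∀ t ∈ Ioo (0 : ℝ) 1, ENNReal.ofReal (1 - t ^ 3) * V ≤
        (volume.restrict K) {x | t < gauge K x} := by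
      intro t ht
      rw [Measure.restrict_apply (measurableSet_lt measurable_const hgm)]
      have hs : K \ {x | gauge K x ≤ t} ⊆ {x | t < gauge K x} ∩ K := by
        rintro x ⟨hxK, hx⟩
        refine ⟨?_, hxK⟩
        have hx' : ¬ gauge K x ≤ t := hx
        exact not_le.mp hx'
      have h1 : volume K - volume {x | gauge K x ≤ t} ≤ volume (K \ {x | gauge K x ≤ t}) :=
        le_measure_sdiff
      have h2 := volume_gauge_le hc hconv h0 ht.1
      have h3 : ENNReal.ofReal (1 - t ^ 3) * V = V - ENNReal.ofReal (t ^ 3) * V := by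
        rw [ENNReal.ofReal_sub _ (by have := ht.1; positivity), ENNReal.ofReal_one,
          ENNReal.sub_mul (fun _ _ => hVfin), one_mul]
      calc ENNReal.ofReal (1 - t ^ 3) * V = V - ENNReal.ofReal (t ^ 3) * V := h3
        _ ≤ V - volume {x | gauge K x ≤ t} := tsub_le_tsub_left h2 V
        _ ≤ volume (K \ {x | gauge K x ≤ t}) := h1
        _ ≤ volume ({x | t < gauge K x} ∩ K) := measure_mono hs
    have hcont : Continuous fun t : ℝ => 1 - t ^ 3 := by fun_prop
    have hI : ∫ t in (0 : ℝ)..1, (1 - t ^ 3) = 3 / 4 := by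
      have hderiv : ∀ t ∈ uIcc (0 : ℝ) 1,
          HasDerivAt (fun t : ℝ => t - t ^ 4 / 4) (1 - t ^ 3) t := by
        intro t _
        have h1 : HasDerivAt (fun x : ℝ => x) 1 t := hasDerivAt_id' t
        have h4 : HasDerivAt (fun x : ℝ => x ^ 4) (4 * t ^ 3) t := by
          simpa using hasDerivAt_pow 4 t
        exact (h1.sub (h4.div_const 4)).congr_deriv (by ring)
      rw [intervalIntegral.integral_eq_sub_of_hasDerivAt hderiv]
      · norm_num
      · exact hcont.intervalIntegrable _ _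
    calc ENNReal.ofReal (3 / 4) * V
        = (∫⁻ t in Ioo (0 : ℝ) 1, ENNReal.ofReal (1 - t ^ 3)) * V := by
          congr 1
          rw [← hI, intervalIntegral.integral_of_le zero_le_one,
            ofReal_integral_eq_lintegral_ofReal]
          · exact setLIntegral_congr (Ioo_ae_eq_Ioc).symm
          · exact (hcont.integrableOn_Icc.mono_set Ioc_subset_Icc_self)
          · refine (ae_restrict_iff' measurableSet_Ioc).mpr (Filter.Eventually.of_forall ?_)
            intro t ht
            have : t ^ 3 ≤ 1 := pow_le_one₀ ht.1.le ht.2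
            show (0 : ℝ) ≤ 1 - t ^ 3
            linarith
      _ = ∫⁻ t in Ioo (0 : ℝ) 1, ENNReal.ofReal (1 - t ^ 3) * V := by
          rw [lintegral_mul_const]
          exact (ENNReal.continuous_ofReal.comp hcont).measurable
      _ ≤ ∫⁻ t in Ioo (0 : ℝ) 1, (volume.restrict K) {x | t < gauge K x} :=
          setLIntegral_mono' measurableSet_Ioo hlev
      _ ≤ ∫⁻ t in Ioi (0 : ℝ), (volume.restrict K) {x | t < gauge K x} :=
          lintegral_mono_set (fun t ht => ht.1)
  have hsplit : ∀ x : E, ENNReal.ofReal (1 + 2 * gauge K x) =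
      1 + 2 * ENNReal.ofReal (gauge K x) := by
    intro x
    have hg : 0 ≤ gauge K x := gauge_nonneg x
    rw [ENNReal.ofReal_add zero_le_one (by positivity), ENNReal.ofReal_one,
      ENNReal.ofReal_mul zero_le_two]
    simp
  simp_rw [hsplit]
  rw [lintegral_add_left measurable_const, lintegral_const_mul' _ _ (by simp)]
  simp only [lintegral_const, Measure.restrict_apply_univ, one_mul]
  calc ENNReal.ofReal (5 / 2) * V = V + 2 * (ENNReal.ofReal (3 / 4) * V) := by
        have : ENNReal.ofReal (5 / 2) = 1 + 2 * ENNReal.ofReal (3 / 4) := by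
          rw [show (5 / 2 : ℝ) = 1 + 2 * (3 / 4) by norm_num,
            ENNReal.ofReal_add zero_le_one (by norm_num), ENNReal.ofReal_one,
            ENNReal.ofReal_mul zero_le_two]
          simp
        rw [this]
        ring
    _ ≤ V + 2 * ∫⁻ x in K, ENNReal.ofReal (gauge K x) := by
        gcongr

/-- **Main theorem.** Every finite covering of a centrally symmetric convex body in Euclidean
three-space by cylinders has relative base area at least `5 / 12`. -/
theorem main_theorem {K : Set E} (hc : IsCompact K) (hconv : Convex ℝ K)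
    (hint : (interior K).Nonempty) (hsymm : ∀ x ∈ K, -x ∈ K) {ι : Type*} [Fintype ι]
    (v w : ι → E) (hv : ∀ i, ‖v i‖ = 1) (hw : ∀ i, ‖w i‖ = 1)
    (hvw : ∀ i, inner ℝ (v i) (w i) = (0 : ℝ))
    (B : ι → Set (ℝ × ℝ)) (hB : ∀ i, MeasurableSet (B i))
    (hcov : K ⊆ ⋃ i, planeCoord (v i) (w i) ⁻¹' B i) :
    (5 / 12 : ℝ≥0∞) ≤ ∑ i, volume (B i) / volume (planeCoord (v i) (w i) '' K) := by
  -- the body is a neighbourhood of the origin
  have h0 : K ∈ 𝓝 (0 : E) := by
    obtain ⟨x, hx⟩ := hint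
    have hx' : -x ∈ interior K := by
      rw [mem_interior_iff_mem_nhds] at hx ⊢
      have h1 : (fun y : E => -y) ⁻¹' K ∈ 𝓝 (-x) := by
        apply (continuous_neg (G := E)).continuousAt.preimage_mem_nhds
        simpa using hx
      refine Filter.mem_of_superset h1 ?_
      intro y hy
      simpa using hsymm _ hy
    have hmid := hconv.interior hx hx' (by norm_num : (0 : ℝ) ≤ 1 / 2) (by norm_num : (0 : ℝ) ≤ 1 / 2)
      (by norm_num)
    have : (1 / 2 : ℝ) • x + (1 / 2 : ℝ) • (-x) = 0 := by simp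
    rw [this] at hmid
    exact mem_interior_iff_mem_nhds.mp hmid
  have hVfin : volume K ≠ ⊤ := hc.measure_lt_top.ne
  have hVpos : volume K ≠ 0 := (Measure.measure_pos_of_mem_nhds _ h0).ne'
  set S := ∑ i, volume (B i) / volume (planeCoord (v i) (w i) '' K) with hS
  have hone : ∀ i, ∫⁻ x in K ∩ planeCoord (v i) (w i) ⁻¹' B i,
        ENNReal.ofReal (1 + 2 * gauge K x) ≤
      6 * volume K * (volume (B i) / volume (planeCoord (v i) (w i) '' K)) := by
    intro i
    have hest := cylinder_estimate_E hc hconv hsymm h0 (v i) (w i) (hv i) (hw i) (hvw i) (hB i)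
    set π := planeCoord (v i) (w i) with hπ
    have hπc : Continuous π := by
      have h1 : π = fun x => (inner ℝ (v i) x, inner ℝ (w i) x) := rfl
      rw [h1]
      fun_prop
    have hPc : IsCompact (π '' K) := hc.image hπc
    have hPfin : volume (π '' K) ≠ ⊤ := hPc.measure_lt_top.ne
    have hPpos : volume (π '' K) ≠ 0 := by
      obtain ⟨T, hT⟩ := exists_decomp (v i) (w i) (hv i) (hw i) (hvw i)
      have hK'0 : T ⁻¹' K ∈ 𝓝 (0 : (ℝ × ℝ) × ℝ) := by
        apply T.continuous.continuousAt.preimage_mem_nhds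
        rwa [map_zero]
      have hfst : Prod.fst '' (T ⁻¹' K) ⊆ π '' K := by
        rintro _ ⟨x, hx, rfl⟩
        exact ⟨T x, hx, hT x⟩
      have hmem : Prod.fst '' (T ⁻¹' K) ∈ 𝓝 (0 : ℝ × ℝ) := by
        have := isOpenMap_fst.image_mem_nhds hK'0
        simpa using this
      exact (Measure.measure_pos_of_mem_nhds _ (Filter.mem_of_superset hmem hfst)).ne'
    rw [← mul_div_assoc, ENNReal.le_div_iff_mul_le (Or.inl hPpos) (Or.inl hPfin), mul_comm]
    exact hest
  have hcover : ∫⁻ x in K, ENNReal.ofReal (1 + 2 * gauge K x) ≤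
      ∑ i, ∫⁻ x in K ∩ planeCoord (v i) (w i) ⁻¹' B i, ENNReal.ofReal (1 + 2 * gauge K x) := by
    have hsub : K ⊆ ⋃ i, K ∩ planeCoord (v i) (w i) ⁻¹' B i := by
      intro x hx
      obtain ⟨i, hi⟩ := mem_iUnion.mp (hcov hx)
      exact mem_iUnion.mpr ⟨i, hx, hi⟩
    refine (lintegral_mono_set hsub).trans ?_
    refine (lintegral_iUnion_le _ _).trans ?_
    rw [tsum_fintype]
  have hmass := mass_ge hc hconv h0
  have hchain : ENNReal.ofReal (5 / 2) * volume K ≤ 6 * S * volume K := by
    calc ENNReal.ofReal (5 / 2) * volume K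
        ≤ ∫⁻ x in K, ENNReal.ofReal (1 + 2 * gauge K x) := hmass
      _ ≤ ∑ i, ∫⁻ x in K ∩ planeCoord (v i) (w i) ⁻¹' B i,
            ENNReal.ofReal (1 + 2 * gauge K x) := hcover
      _ ≤ ∑ i, 6 * volume K * (volume (B i) / volume (planeCoord (v i) (w i) '' K)) :=
          Finset.sum_le_sum fun i _ => hone i
      _ = 6 * volume K * S := by rw [hS, Finset.mul_sum]
      _ = 6 * S * volume K := by ring
  have hcancel : ENNReal.ofReal (5 / 2) ≤ 6 * S :=
    (ENNReal.mul_le_mul_iff_left hVpos hVfin).mp hchain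
  have h1 : (5 / 12 : ℝ≥0∞) = ENNReal.ofReal (5 / 12) := by
    rw [ENNReal.ofReal_div_of_pos (by norm_num)]
    simp
  have h2 : ENNReal.ofReal (5 / 2) = 6 * ENNReal.ofReal (5 / 12) := by
    rw [show (5 / 2 : ℝ) = 6 * (5 / 12) by norm_num, ENNReal.ofReal_mul (by norm_num)]
    simp
  rw [h2] at hcancel
  rw [h1]
  exact (ENNReal.mul_le_mul_iff_right (by simp) (by simp)).mp hcancel

end Vale.Agent.P243
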