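import Vale.Agent.P243.Slice

/-!
The planar area estimate: thickening a centrally symmetric planar convex body along a segment.
-/

open MeasureTheory Set Module Pointwise
open scoped ENNReal Topology

namespace Vale.Agent.P243

/-- The estimate in coordinates, with the segment along the first axis. -/
theorem planar_core (P' : Set (ℝ × ℝ)) (hc : IsCompact P') (hconv : Convex ℝ P')
    (hsymm : ∀ x ∈ P', -x ∈ P') (r : ℝ) (hr : 0 < r)
    (hgauge : ∀ w : ℝ, (w, (0 : ℝ)) ∈ P' → |w| * r ≤ 1)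
    (τ : ℝ) (hτ0 : 0 ≤ τ) (hτ1 : τ < 1) (Q' : Set (ℝ × ℝ)) (hQ' : MeasurableSet Q')
    (hsub : ∀ q ∈ P', ∀ s ∈ Icc (-τ) τ, ((1 - τ) * q.1 + s, (1 - τ) * q.2) ∈ Q') :
    ENNReal.ofReal ((1 - τ) ^ 2 + τ * (1 - τ) * r) * volume P' ≤ volume Q' := by
  have h1τ : 0 < 1 - τ := by linarith
  set Q : Set (ℝ × ℝ) := (1 - τ) • P' with hQdef
  have hQc : IsCompact Q := hc.smul _
  have hQvol : volume Q = ENNReal.ofReal ((1 - τ) ^ 2) * volume P' := by
    rw [hQdef, Measure.addHaar_smul_of_nonneg _ h1τ.le]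
    simp
  have hmemQ : ∀ x y : ℝ, (x, y) ∈ Q → ∃ q ∈ P', x = (1 - τ) * q.1 ∧ y = (1 - τ) * q.2 := by
    intro x y hxy
    obtain ⟨q, hq, hqe⟩ := Set.mem_smul_set.mp hxy
    refine ⟨q, hq, ?_, ?_⟩
    · have := congrArg Prod.fst hqe
      simpa using this.symm
    · have := congrArg Prod.snd hqe
      simpa using this.symm
  have hthick := volume_thicken_ge Q Q' hQc hQ' τ hτ0 (by
    intro p hp s hs
    obtain ⟨q, hq, hqe⟩ := Set.mem_smul_set.mp hp
    have := hsub q hq s hs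
    rw [← hqe]
    simpa using this)
  have hslice := volume_le_of_slices Q hQc (2 * (1 - τ) / r) (by positivity) (by
    intro x x' y hx hx'
    obtain ⟨q, hq, hq1, hq2⟩ := hmemQ x y hx
    obtain ⟨q', hq', hq1', hq2'⟩ := hmemQ x' y hx'
    have hqm : (1 / 2 : ℝ) • q + (1 / 2 : ℝ) • (-q') ∈ P' :=
      hconv hq (hsymm _ hq') (by norm_num) (by norm_num) (by norm_num)
    have hq22 : q.2 = q'.2 := by
      have : (1 - τ) * q.2 = (1 - τ) * q'.2 := by rw [← hq2, ← hq2']
      exact mul_left_cancel₀ h1τ.ne' this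
    have hw : (((1 / 2 : ℝ) • q + (1 / 2 : ℝ) • (-q')).1, (0 : ℝ)) ∈ P' := by
      have : ((1 / 2 : ℝ) • q + (1 / 2 : ℝ) • (-q')) =
          (((1 / 2 : ℝ) • q + (1 / 2 : ℝ) • (-q')).1, (0 : ℝ)) := by
        ext
        · rfl
        · simp [hq22]
      rwa [this] at hqm
    have hg := hgauge _ hw
    have hdiff : x - x' = 2 * (1 - τ) * (((1 / 2 : ℝ) • q + (1 / 2 : ℝ) • (-q')).1) := by
      simp only [Prod.fst_add, Prod.smul_fst, Prod.fst_neg, smul_eq_mul]
      rw [hq1, hq1']; ring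
    rw [hdiff, abs_mul, abs_of_pos (by positivity : (0 : ℝ) < 2 * (1 - τ)), le_div_iff₀ hr]
    calc 2 * (1 - τ) * |((1 / 2 : ℝ) • q + (1 / 2 : ℝ) • (-q')).1| * r
        = 2 * (1 - τ) * (|((1 / 2 : ℝ) • q + (1 / 2 : ℝ) • (-q')).1| * r) := by ring
      _ ≤ 2 * (1 - τ) * 1 := by
          apply mul_le_mul_of_nonneg_left hg (by positivity)
      _ = 2 * (1 - τ) := by ring)
  -- assemble
  have hratio : ENNReal.ofReal (τ * (1 - τ) * r) * volume P' ≤
      ENNReal.ofReal (2 * τ) * volume (Prod.snd '' Q) := by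
    calc ENNReal.ofReal (τ * (1 - τ) * r) * volume P'
        = ENNReal.ofReal (τ * r / (1 - τ)) * (ENNReal.ofReal ((1 - τ) ^ 2) * volume P') := by
          rw [← mul_assoc, ← ENNReal.ofReal_mul (by positivity)]
          congr 2
          field_simp
      _ = ENNReal.ofReal (τ * r / (1 - τ)) * volume Q := by rw [hQvol]
      _ ≤ ENNReal.ofReal (τ * r / (1 - τ)) *
            (ENNReal.ofReal (2 * (1 - τ) / r) * volume (Prod.snd '' Q)) :=
          mul_le_mul_right hslice _
      _ = ENNReal.ofReal (2 * τ) * volume (Prod.snd '' Q) := by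
          rw [← mul_assoc, ← ENNReal.ofReal_mul (by positivity)]
          congr 2
          field_simp
  calc ENNReal.ofReal ((1 - τ) ^ 2 + τ * (1 - τ) * r) * volume P'
      = ENNReal.ofReal ((1 - τ) ^ 2) * volume P' +
          ENNReal.ofReal (τ * (1 - τ) * r) * volume P' := by
        rw [ENNReal.ofReal_add (by positivity) (by positivity), add_mul]
    _ ≤ volume Q + ENNReal.ofReal (2 * τ) * volume (Prod.snd '' Q) := by
        rw [hQvol]
        gcongr
    _ ≤ volume Q' := hthick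

end Vale.Agent.P243
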