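import Vale.Agent.P243.Planar

/-!
The planar area estimate in an arbitrary two-dimensional real normed space with a Haar measure.
-/

open MeasureTheory Set Module Pointwise
open scoped ENNReal Topology

namespace Vale.Agent.P243

/-- Transfer of Haar measures along a continuous linear equivalence. -/
theorem exists_haar_transfer {W F : Type*} [NormedAddCommGroup W] [NormedSpace ℝ W]
    [MeasurableSpace W] [BorelSpace W] [FiniteDimensional ℝ W]
    [NormedAddCommGroup F] [NormedSpace ℝ F] [MeasurableSpace F] [BorelSpace F]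
    [FiniteDimensional ℝ F] (μ : Measure W) [μ.IsAddHaarMeasure] (ν : Measure F)
    [ν.IsAddHaarMeasure] (T : W ≃L[ℝ] F) :
    ∃ c : ℝ≥0∞, c ≠ ⊤ ∧ c ≠ 0 ∧ ∀ A : Set W, μ A = c * ν (T '' A) := by
  have hmap : (μ.map T).IsAddHaarMeasure := T.isAddHaarMeasure_map μ
  have heq := Measure.isAddLeftInvariant_eq_smul (μ.map T) ν
  refine ⟨(Measure.addHaarScalarFactor (μ.map T) ν : ℝ≥0∞), ENNReal.coe_ne_top, ?_, ?_⟩
  · simp only [ne_eq, ENNReal.coe_eq_zero]
    exact (Measure.addHaarScalarFactor_pos_of_isAddHaarMeasure _ _).ne'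
  · intro A
    have h1 : (μ.map T) (T '' A) = μ A := by
      have he := T.toHomeomorph.toMeasurableEquiv.map_apply (μ := μ) (T '' A)
      have h2 : (T.toHomeomorph.toMeasurableEquiv : W → F) ⁻¹' (T '' A) = A := by
        ext x
        simp
      have h3 : Measure.map (T.toHomeomorph.toMeasurableEquiv : W → F) μ = μ.map T := rfl
      rw [h3, h2] at he
      exact he
    rw [← h1]
    conv_lhs => rw [heq]
    simp [Measure.smul_apply]

/-- The thickening of `(1 - τ) • P` by the segment `τ • [-y, y]`. -/
def segThick {W : Type*} [AddCommGroup W] [Module ℝ W] (P : Set W) (y : W) (τ : ℝ) : Set W :=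
  (fun a : ℝ × W => τ • (a.1 • y) + (1 - τ) • a.2) '' (Icc (-1 : ℝ) 1 ×ˢ P)

theorem isCompact_segThick {W : Type*} [NormedAddCommGroup W] [NormedSpace ℝ W] {P : Set W}
    (hP : IsCompact P) (y : W) (τ : ℝ) : IsCompact (segThick P y τ) := by
  apply (isCompact_Icc.prod hP).image
  fun_prop

/-- The planar area estimate. -/
theorem planar_estimate {W : Type*} [NormedAddCommGroup W] [NormedSpace ℝ W]
    [MeasurableSpace W] [BorelSpace W] [FiniteDimensional ℝ W]
    (μ : Measure W) [μ.IsAddHaarMeasure] (hW : finrank ℝ W = 2)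
    (P : Set W) (hc : IsCompact P) (hconv : Convex ℝ P) (hsymm : ∀ x ∈ P, -x ∈ P)
    (y : W) (τ : ℝ) (hτ0 : 0 ≤ τ) (hτ1 : τ ≤ 1) :
    ENNReal.ofReal ((1 - τ) ^ 2 + τ * (1 - τ) * gauge P y) * μ P ≤ μ (segThick P y τ) := by
  set r := gauge P y with hr
  have hr0 : 0 ≤ r := gauge_nonneg _
  rcases hτ1.eq_or_lt with rfl | hτ1'
  · simp
  have h1τ : 0 < 1 - τ := by linarith
  rcases hr0.eq_or_lt with hrz | hrpos
  · -- `r = 0`
    have hsub : (1 - τ) • P ⊆ segThick P y τ := by
      rintro _ ⟨p, hp, rfl⟩
      exact ⟨(0, p), ⟨⟨by norm_num, by norm_num⟩, hp⟩, by simp⟩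
    calc ENNReal.ofReal ((1 - τ) ^ 2 + τ * (1 - τ) * r) * μ P
        = μ ((1 - τ) • P) := by
          rw [Measure.addHaar_smul_of_nonneg _ h1τ.le, hW, ← hrz]
          simp
      _ ≤ _ := measure_mono hsub
  · -- `r > 0`
    have hy : y ≠ 0 := by
      rintro rfl
      simp [hr] at hrpos
    have hfr : finrank ℝ W = finrank ℝ (ℝ × ℝ) := by simp [hW]
    let T0 : W ≃L[ℝ] (ℝ × ℝ) := ContinuousLinearEquiv.ofFinrankEq hfr
    have hT0y : T0 y ≠ 0 := by simpa using hy
    obtain ⟨A, hA⟩ := SeparatingDual.exists_continuousLinearEquiv_apply_eq (R := ℝ) hT0y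
      (show ((1, 0) : ℝ × ℝ) ≠ 0 by simp)
    let T : W ≃L[ℝ] (ℝ × ℝ) := T0.trans A
    have hTy : T y = (1, 0) := hA
    obtain ⟨c, _, _, hcA⟩ := exists_haar_transfer μ (volume : Measure (ℝ × ℝ)) T
    have hcore := planar_core (T '' P) (hc.image T.continuous) (hconv.linear_image T.toLinearMap)
      (by
        rintro _ ⟨p, hp, rfl⟩
        exact ⟨-p, hsymm p hp, by simp⟩) r hrpos
      (by
        rintro w ⟨p, hp, hpe⟩
        have hpw : p = w • y := by
          apply T.injective
          rw [hpe, map_smul, hTy]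
          simp
        rw [hpw] at hp
        have hbal : Balanced ℝ P := by
          intro a ha
          rintro _ ⟨x, hx, rfl⟩
          have hmem : ∀ b : ℝ, |b| ≤ 1 → ∀ x ∈ P, b • x ∈ P := by
            intro b hb x hx
            have h1 : (-1:ℝ) ≤ b := (abs_le.mp hb).1
            have h2 : b ≤ 1 := (abs_le.mp hb).2
            have : b • x = ((1 + b) / 2) • x + ((1 - b) / 2) • (-x) := by
              simp only [smul_neg]
              rw [← sub_eq_add_neg, ← sub_smul]
              congr 1; ring
            rw [this]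
            exact hconv hx (hsymm x hx) (by linarith) (by linarith) (by ring)
          exact hmem a (by simpa using ha) x hx
        have := gauge_le_one_of_mem hp
        rw [gauge_smul hbal w y] at this
        simpa using this)
      τ hτ0 hτ1' (T '' segThick P y τ)
      ((isCompact_segThick hc y τ).image T.continuous).measurableSet
      (by
        rintro _ ⟨p, hp, rfl⟩ s hs
        have hs' : τ * (if τ = 0 then 0 else s / τ) = s := by
          split_ifs with h0
          · rw [h0] at hs ⊢
            have : s = 0 := le_antisymm (by simpa using hs.2) (by simpa using hs.1)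
            simp [this]
          · field_simp
        have hs'' : (if τ = 0 then 0 else s / τ) ∈ Icc (-1 : ℝ) 1 := by
          split_ifs with h0
          · simp
          · have hτpos : 0 < τ := lt_of_le_of_ne hτ0 (Ne.symm h0)
            constructor
            · rw [le_div_iff₀ hτpos]; linarith [hs.1]
            · rw [div_le_iff₀ hτpos]; linarith [hs.2]
        generalize (if τ = 0 then 0 else s / τ) = s' at hs' hs''
        refine ⟨_, ⟨(s', p), ⟨hs'', hp⟩, rfl⟩, ?_⟩
        simp only [map_add, map_smul, hTy]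
        ext
        · simp only [Prod.fst_add, Prod.smul_fst, smul_eq_mul, mul_one]
          rw [hs']; ring
        · simp)
    rw [hcA P, hcA (segThick P y τ)]
    calc ENNReal.ofReal ((1 - τ) ^ 2 + τ * (1 - τ) * r) * (c * volume (T '' P))
        = c * (ENNReal.ofReal ((1 - τ) ^ 2 + τ * (1 - τ) * r) * volume (T '' P)) := by ring
      _ ≤ c * volume (T '' segThick P y τ) := mul_le_mul_right hcore c

end Vale.Agent.P243
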