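import Mathlib

/-!
Elementary area estimates in the plane, by slicing along the first coordinate.
-/

open MeasureTheory Set
open scoped ENNReal

namespace Vale.Agent.P243

/-- One-dimensional Minkowski sum with an interval: a compact nonempty set of reals gains at
least `2 * d` in length when thickened by `d`. -/
theorem volume_add_two_mul_le (A A' : Set ℝ) (hA : IsCompact A) (hne : A.Nonempty) (d : ℝ)
    (hd : 0 ≤ d) (h : ∀ x ∈ A, ∀ s ∈ Icc (-d) d, x + s ∈ A') :
    volume A + ENNReal.ofReal (2 * d) ≤ volume A' := by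
  have ha := hA.sInf_mem hne
  have hb := hA.sSup_mem hne
  set a := sInf A with ha_def
  set b := sSup A with hb_def
  have hsub : A ⊆ Icc a b := fun x hx =>
    ⟨csInf_le hA.bddBelow hx, le_csSup hA.bddAbove hx⟩
  have hAm : MeasurableSet A := hA.measurableSet
  have h1 : Disjoint (Ico (a - d) a) A := by
    rw [Set.disjoint_left]
    intro x hx hxA
    exact absurd (hsub hxA).1 (not_le.mpr hx.2)
  have h2 : Disjoint (Ico (a - d) a ∪ A) (Ioc b (b + d)) := by
    rw [Set.disjoint_left]
    intro x hx hx'
    rcases hx with hx | hx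
    · have : a ≤ b := (hsub ha).2
      exact absurd (hx.2.trans_le this) (not_lt.mpr hx'.1.le)
    · exact absurd (hsub hx).2 (not_le.mpr hx'.1)
  have hsub' : Ico (a - d) a ∪ A ∪ Ioc b (b + d) ⊆ A' := by
    rintro x ((hx | hx) | hx)
    · have := h a ha (x - a) ⟨by linarith [hx.1], by linarith [hx.2]⟩
      simpa using this
    · have := h x hx 0 ⟨by linarith, hd⟩
      simpa using this
    · have := h b hb (x - b) ⟨by linarith [hx.1], by linarith [hx.2]⟩
      simpa using this
  calc volume A + ENNReal.ofReal (2 * d)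
      = ENNReal.ofReal d + volume A + ENNReal.ofReal d := by
        rw [two_mul, ENNReal.ofReal_add hd hd]; ring
    _ = volume (Ico (a - d) a) + volume A + volume (Ioc b (b + d)) := by
        simp [Real.volume_Ico, Real.volume_Ioc]
    _ = volume (Ico (a - d) a ∪ A ∪ Ioc b (b + d)) := by
        rw [measure_union h2 measurableSet_Ioc, measure_union h1 hAm]
    _ ≤ volume A' := measure_mono hsub'

/-- Thickening a compact planar set horizontally by `d` gains at least `2 * d` times the length of
its projection to the second coordinate. -/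
theorem volume_thicken_ge (Q Q' : Set (ℝ × ℝ)) (hQ : IsCompact Q) (hQ' : MeasurableSet Q') (d : ℝ)
    (hd : 0 ≤ d) (h : ∀ p ∈ Q, ∀ s ∈ Icc (-d) d, (p.1 + s, p.2) ∈ Q') :
    volume Q + ENNReal.ofReal (2 * d) * volume (Prod.snd '' Q) ≤ volume Q' := by
  have hQm : MeasurableSet Q := hQ.measurableSet
  have hSc : IsCompact (Prod.snd '' Q) := hQ.image continuous_snd
  have hSm : MeasurableSet (Prod.snd '' Q) := hSc.measurableSet
  simp only [Measure.volume_eq_prod]
  rw [Measure.prod_apply_symm hQm, Measure.prod_apply_symm hQ']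
  have hmeas : Measurable fun y : ℝ => (volume : Measure ℝ) ((fun x => (x, y)) ⁻¹' Q) :=
    measurable_measure_prodMk_right hQm
  have key : ∀ y : ℝ, (volume : Measure ℝ) ((fun x => (x, y)) ⁻¹' Q) +
      (Prod.snd '' Q).indicator (fun _ => ENNReal.ofReal (2 * d)) y ≤
      (volume : Measure ℝ) ((fun x => (x, y)) ⁻¹' Q') := by
    intro y
    by_cases hy : y ∈ Prod.snd '' Q
    · rw [indicator_of_mem hy]
      obtain ⟨p, hp, rfl⟩ := hy
      refine volume_add_two_mul_le _ _ ?_ ⟨p.1, hp⟩ d hd ?_
      · exact (hQ.image continuous_fst).of_isClosed_subset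
          (hQ.isClosed.preimage (by fun_prop)) (fun x hx => ⟨(x, p.2), hx, rfl⟩)
      · intro x hx s hs
        exact h (x, p.2) hx s hs
    · rw [indicator_of_notMem hy, add_zero]
      apply measure_mono
      intro x hx
      exfalso
      exact hy ⟨(x, y), hx, rfl⟩
  calc (∫⁻ y, (volume : Measure ℝ) ((fun x => (x, y)) ⁻¹' Q)) +
        ENNReal.ofReal (2 * d) * (volume : Measure ℝ) (Prod.snd '' Q)
      = (∫⁻ y, (volume : Measure ℝ) ((fun x => (x, y)) ⁻¹' Q)) +
        ∫⁻ y, (Prod.snd '' Q).indicator (fun _ => ENNReal.ofReal (2 * d)) y := by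
        congr 1
        rw [lintegral_indicator hSm, setLIntegral_const]
    _ = ∫⁻ y, ((volume : Measure ℝ) ((fun x => (x, y)) ⁻¹' Q) +
        (Prod.snd '' Q).indicator (fun _ => ENNReal.ofReal (2 * d)) y) := by
        rw [lintegral_add_left hmeas]
    _ ≤ ∫⁻ y, (volume : Measure ℝ) ((fun x => (x, y)) ⁻¹' Q') := lintegral_mono key

/-- If all horizontal slices of a compact planar set have diameter at most `L`, then its area is
at most `L` times the length of its projection to the second coordinate. -/
theorem volume_le_of_slices (Q : Set (ℝ × ℝ)) (hQ : IsCompact Q) (L : ℝ) (hL : 0 ≤ L)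
    (h : ∀ x x' y : ℝ, (x, y) ∈ Q → (x', y) ∈ Q → |x - x'| ≤ L) :
    volume Q ≤ ENNReal.ofReal L * volume (Prod.snd '' Q) := by
  have hQm : MeasurableSet Q := hQ.measurableSet
  have hSc : IsCompact (Prod.snd '' Q) := hQ.image continuous_snd
  have hSm : MeasurableSet (Prod.snd '' Q) := hSc.measurableSet
  simp only [Measure.volume_eq_prod]
  rw [Measure.prod_apply_symm hQm]
  have key : ∀ y : ℝ, (volume : Measure ℝ) ((fun x => (x, y)) ⁻¹' Q) ≤
      (Prod.snd '' Q).indicator (fun _ => ENNReal.ofReal L) y := by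
    intro y
    by_cases hy : y ∈ Prod.snd '' Q
    · rw [indicator_of_mem hy]
      refine (Real.volume_le_diam _).trans ?_
      refine Metric.ediam_le fun x hx x' hx' => ?_
      rw [edist_dist, Real.dist_eq]
      exact ENNReal.ofReal_le_ofReal (h x x' y hx hx')
    · rw [indicator_of_notMem hy]
      have : (fun x => (x, y)) ⁻¹' Q = ∅ := by
        ext x
        simp only [mem_preimage, mem_empty_iff_false, iff_false]
        intro hx
        exact hy ⟨(x, y), hx, rfl⟩
      simp [this]
  calc ∫⁻ y, (volume : Measure ℝ) ((fun x => (x, y)) ⁻¹' Q)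
      ≤ ∫⁻ y, (Prod.snd '' Q).indicator (fun _ => ENNReal.ofReal L) y := lintegral_mono key
    _ = ENNReal.ofReal L * (volume : Measure ℝ) (Prod.snd '' Q) := by
        rw [lintegral_indicator hSm, setLIntegral_const]

end Vale.Agent.P243
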