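import Vale.Agent.P243.Chord

/-!
The volume lower bound: `|K| ≥ ℓ(z) |P| (1/3 + r/6)`, for a chord of length `ℓ(z)` over a point `z`
of gauge `r` in the projection `P`.
-/

open MeasureTheory Set Module Pointwise
open scoped ENNReal Topology

namespace Vale.Agent.P243

theorem integral_poly_unit (r : ℝ) :
    ∫ x in (0 : ℝ)..1, ((1 - x) ^ 2 + x * (1 - x) * r) = 1 / 3 + r / 6 := by
  have hderiv : ∀ x ∈ uIcc (0 : ℝ) 1,
      HasDerivAt (fun x : ℝ => x - x ^ 2 + x ^ 3 / 3 + r * (x ^ 2 / 2 - x ^ 3 / 3))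
        ((1 - x) ^ 2 + x * (1 - x) * r) x := by
    intro x _
    have h1 : HasDerivAt (fun x : ℝ => x) 1 x := hasDerivAt_id' x
    have h2 : HasDerivAt (fun x : ℝ => x ^ 2) (2 * x) x := by simpa using hasDerivAt_pow 2 x
    have h3 : HasDerivAt (fun x : ℝ => x ^ 3) (3 * x ^ 2) x := by simpa using hasDerivAt_pow 3 x
    have := ((h1.sub h2).add (h3.div_const 3)).add
      (HasDerivAt.const_mul r ((h2.div_const 2).sub (h3.div_const 3)))
    exact this.congr_deriv (by ring)
  rw [intervalIntegral.integral_eq_sub_of_hasDerivAt hderiv]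
  · ring
  · apply Continuous.intervalIntegrable
    fun_prop

theorem integral_poly_scaled (r L : ℝ) (hL : 0 < L) :
    ∫ t in (0 : ℝ)..L, ((1 - t / L) ^ 2 + t / L * (1 - t / L) * r) = L * (1 / 3 + r / 6) := by
  have := intervalIntegral.integral_comp_div (a := 0) (b := L)
    (fun x : ℝ => (1 - x) ^ 2 + x * (1 - x) * r) hL.ne'
  simp only [zero_div, div_self hL.ne', integral_poly_unit, smul_eq_mul] at this
  exact this

variable {W : Type*} [NormedAddCommGroup W] [NormedSpace ℝ W]
    [MeasurableSpace W] [BorelSpace W] [FiniteDimensional ℝ W]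

/-- The chord length function is measurable, and its integral is the volume. -/
theorem prod_volume_eq_lintegral (μ : Measure W) [SFinite μ] {K : Set (W × ℝ)} (hc : IsCompact K) :
    (μ.prod volume) K = ∫⁻ w, ENNReal.ofReal (chordLen K w) ∂μ := by
  rw [Measure.prod_apply hc.measurableSet]
  apply lintegral_congr
  intro w
  have hlt : volume (Prod.mk w ⁻¹' K) ≠ ⊤ := by
    have hsub : Prod.mk w ⁻¹' K ⊆ Prod.snd '' K := fun t ht => ⟨(w, t), ht, rfl⟩
    exact ((measure_mono hsub).trans_lt (hc.image continuous_snd).measure_lt_top).ne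
  have : chordLen K w = (volume (Prod.mk w ⁻¹' K)).toReal := rfl
  rw [this, ENNReal.ofReal_toReal hlt]

theorem measurable_chordLen {K : Set (W × ℝ)} (hc : IsCompact K) : Measurable (chordLen K) :=
  (measurable_measure_prodMk_left (ν := (volume : Measure ℝ)) hc.measurableSet).ennreal_toReal

/-- The volume lower bound. -/
theorem volume_lower_bound (μ : Measure W) [μ.IsAddHaarMeasure] (hW : finrank ℝ W = 2)
    {K : Set (W × ℝ)} (hc : IsCompact K) (hconv : Convex ℝ K) (hsymm : ∀ x ∈ K, -x ∈ K)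
    {z : W} (hz : z ∈ Prod.fst '' K) :
    ENNReal.ofReal (chordLen K z * (1 / 3 + gauge (Prod.fst '' K) z / 6)) * μ (Prod.fst '' K) ≤
      (μ.prod volume) K := by
  set P : Set W := Prod.fst '' K with hP
  set L := chordLen K z with hLdef
  set r := gauge P z with hrdef
  have hL0 : 0 ≤ L := chordLen_nonneg K z
  have hr0 : 0 ≤ r := gauge_nonneg _
  rcases hL0.eq_or_lt with hLz | hLpos
  · simp [← hLz]
  have hPc : IsCompact P := hc.image continuous_fst
  have hPconv : Convex ℝ P := hconv.linear_image (LinearMap.fst ℝ W ℝ)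
  have hPsymm : ∀ x ∈ P, -x ∈ P := fun x hx => neg_mem_fst_image hsymm hx
  rw [prod_volume_eq_lintegral μ hc]
  have hmeas := measurable_chordLen hc
  rw [lintegral_eq_lintegral_meas_le μ (Filter.Eventually.of_forall (chordLen_nonneg K))
    hmeas.aemeasurable]
  have hlev : ∀ t ∈ Ioo (0 : ℝ) L, ENNReal.ofReal ((1 - t / L) ^ 2 + t / L * (1 - t / L) * r) *
      μ P ≤ μ {w | t ≤ chordLen K w} := by
    intro t ht
    have hτ0 : 0 ≤ t / L := div_nonneg ht.1.le hLpos.le
    have hτ1 : t / L ≤ 1 := (div_le_one hLpos).mpr ht.2.le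
    refine (planar_estimate μ hW P hPc hPconv hPsymm z (t / L) hτ0 hτ1).trans (measure_mono ?_)
    intro x hx
    have := chordLen_ge_of_mem_segThick hc hconv hsymm hz hτ0 hτ1 hx
    rw [div_mul_cancel₀ _ hLpos.ne'] at this
    exact this
  have hcont : Continuous fun t : ℝ => (1 - t / L) ^ 2 + t / L * (1 - t / L) * r := by fun_prop
  calc ENNReal.ofReal (L * (1 / 3 + r / 6)) * μ P
      = (∫⁻ t in Ioo (0 : ℝ) L,
          ENNReal.ofReal ((1 - t / L) ^ 2 + t / L * (1 - t / L) * r)) * μ P := by
        congr 1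
        rw [← integral_poly_scaled r L hLpos,
          intervalIntegral.integral_of_le hLpos.le,
          ofReal_integral_eq_lintegral_ofReal]
        · exact setLIntegral_congr (Ioo_ae_eq_Ioc).symm
        · exact (hcont.integrableOn_Icc.mono_set Ioc_subset_Icc_self)
        · refine (ae_restrict_iff' measurableSet_Ioc).mpr (Filter.Eventually.of_forall ?_)
          intro t ht
          have hτ0 : 0 ≤ t / L := div_nonneg ht.1.le hLpos.le
          have hτ1 : t / L ≤ 1 := (div_le_one hLpos).mpr ht.2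
          have : 0 ≤ 1 - t / L := by linarith
          show (0 : ℝ) ≤ (1 - t / L) ^ 2 + t / L * (1 - t / L) * r
          positivity
    _ = ∫⁻ t in Ioo (0 : ℝ) L, ENNReal.ofReal ((1 - t / L) ^ 2 + t / L * (1 - t / L) * r) * μ P := by
        rw [lintegral_mul_const]
        exact (ENNReal.continuous_ofReal.comp hcont).measurable
    _ ≤ ∫⁻ t in Ioo (0 : ℝ) L, μ {w | t ≤ chordLen K w} :=
        setLIntegral_mono' measurableSet_Ioo hlev
    _ ≤ ∫⁻ t in Ioi (0 : ℝ), μ {w | t ≤ chordLen K w} :=
        lintegral_mono_set (fun t ht => ht.1)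

end Vale.Agent.P243
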